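import Vale.Agent.P173.Main
import Vale.Agent.P173.Asm
import Vale.Agent.P173.CW0
import Vale.Agent.P173.Cd
import Vale.Agent.P173.Data
import Vale.Agent.P173.Raag
import Vale.Agent.P173.Scale
import Vale.Agent.P246.Pull
import Vale.Agent.P246.Model

universe u v w

open Vale.Agent.P173 Vale.Agent.P246 in
theorem Vale.Agent.Results.P246.NonFinite.result :
    ∃ (Γ : Type) (_ : Group Γ), Group.FG Γ ∧
      (∃ (S T : Type) (_ : Finite S) (_ : Finite T)
        (d₂ : (T →₀ MonoidAlgebra ℤ Γ) →ₗ[MonoidAlgebra ℤ Γ] (S →₀ MonoidAlgebra ℤ Γ))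
        (d₁ : (S →₀ MonoidAlgebra ℤ Γ) →ₗ[MonoidAlgebra ℤ Γ] MonoidAlgebra ℤ Γ)
        (ε : MonoidAlgebra ℤ Γ →ₗ[MonoidAlgebra ℤ Γ] (Representation.trivial ℤ Γ ℤ).asModule),
        Function.Injective d₂ ∧ Function.Exact d₂ d₁ ∧ Function.Exact d₁ ε ∧
          Function.Surjective ε) ∧
      (∃ (X E : Type) (_ : TopologicalSpace X) (_ : TopologicalSpace E) (p : E → X) (x : X),
        ContractibleSpace E ∧ IsCoveringMap p ∧ Function.Surjective p ∧
          Nonempty (FundamentalGroup X x ≃* Γ)) ∧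
      ∀ (X : Type u) [TopologicalSpace X] (E : Type v) [TopologicalSpace E] [ContractibleSpace E]
        (p : E → X) (x : X), IsCoveringMap p → Function.Surjective p →
        Nonempty (FundamentalGroup X x ≃* Γ) →
        ∀ (Y : Type w) [TopologicalSpace Y] [T2Space Y] [Topology.CWComplex (Set.univ : Set Y)],
          (∀ n, 2 < n → IsEmpty (Topology.CWComplex.cell (Set.univ : Set Y) n)) →
          IsEmpty (ContinuousMap.HomotopyEquiv X Y) := by
  obtain ⟨G, ψ, h1, -, h2, h3⟩ := exists_data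
  have hE := bb_exact G h1
  refine ⟨BB G, inferInstance, Group.fg_iff.2 ⟨_, hE.1, Set.finite_range _⟩,
    ⟨Ed G, Tr G × Bool, inferInstance, inferInstance, Cd.D2 (bbTri G), Cd.D1 (bbTri G), Cd.aug _,
      Cd.D2_inj _ hE, fun y => ⟨Cd.ker_D1 _ hE y, ?_⟩, fun r => ⟨Cd.ker_aug _ hE r, ?_⟩,
      Cd.aug_surj⟩, exists_model _, ?_⟩
  · rintro ⟨x, rfl⟩
    exact Cd.D1_D2 _ x
  · rintro ⟨x, rfl⟩
    exact Cd.aug_D1 _ x
  rintro X _ E _ _ p x hp hs ⟨φ⟩ Y _ _ _ hY
  refine ⟨fun F => ?_⟩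
  have := pull_contr hp F.symm
  have : PathConnectedSpace X := hs.pathConnectedSpace hp.continuous
  obtain ⟨θ⟩ := pi1_equiv F.symm (F.toFun x) x
  obtain ⟨K⟩ := exists_cx hY
  obtain ⟨π, R, r, h⟩ := K.exists_asph (pull_cov hp F.symm.toFun.continuous)
    (fun y => (hs (F.symm.toFun y)).elim fun e he => ⟨⟨(y, e), he.symm⟩, rfl⟩) (θ.trans φ)
  exact no_asph (bbTri G) hE (bb_scale G h1 ψ h2 h3) π r h
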